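import Vale.Agent.P032.S5.H225.Germ
import Vale.Agent.P032.S5.H824.Two

/-!
# P032: two two-pair centres at distance one with one common pair

`Irr.no_flip`: `z = {ab|cd}`, `v = {ab|ef}` at distance one cannot exist, if some direction carries
`ab` on `S(z)` and `ef` on `S(v)`, and some direction carries `cd` on `S(z)` and `ab` on `S(v)`.
-/

open Set Filter Topology Metric

noncomputable section

namespace Vale.Agent.P032.Six

namespace Flip

variable {U : Fin 6 → Set ℂ} {T : ℂ → Set (Fin 6)}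

/-- partner lemma, parametrised arc -/
theorem partner_cis (h : Mx U) {z v : ℂ} {θ η : ℝ} {i : Fin 6} (hη : 0 < η)
    (hJ : ∀ r : ℝ, |r - θ| < η → i ∈ Pal U (z + cis r)) (hv : dist (z + cis θ) v = 1)
    (hi : i ∈ Pal U v) : v = z ∨ v + z = 2 * (z + cis θ) := by
  by_contra hcon
  push Not at hcon
  obtain ⟨hne, hne2⟩ := hcon
  have hcr : cr (cis θ) (z + cis θ - v) ≠ 0 := by
    have h1 := cr_ne (z := z + cis θ) (c := z) (q := v) (dist_add_cis z θ) hv hne.symm
      (by rw [add_comm]; exact hne2)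
    rwa [add_sub_cancel_left] at h1
  obtain ⟨t1, t2, h1, h2, h3, h4⟩ := circle_signs (c := z) (q := v) (t0 := θ) hv hcr hη
  have hQ : IsPreconnected ((fun t => z + cis t) '' ball θ η) :=
    (convex_ball θ η).isPreconnected.image _
      (continuous_const.add continuous_cis).continuousOn
  have hm1 : t1 ∈ ball θ η := by rw [mem_ball, Real.dist_eq]; exact h1
  have hm2 : t2 ∈ ball θ η := by rw [mem_ball, Real.dist_eq]; exact h2
  refine h.wlemma (i := i) hQ ?_ (z := v) ⟨t1, hm1, rfl⟩ ⟨t2, hm2, rfl⟩ h3 h4 hi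
  rintro _ ⟨r, hr, rfl⟩
  exact hJ r (by rw [mem_ball, Real.dist_eq] at hr; exact hr)

theorem cis_add (s t : ℝ) : cis (s + t) = cis s * cis t := by
  unfold cis
  rw [← Complex.exp_add]
  congr 1
  push_cast
  ring

/-- **rotation by 60 degrees of a half branch** -/
theorem rot60 (h : Irr U T) {z v y : ℂ} (hv : dist v z = 1) (hy : dist y z = 1)
    (hyv : dist y v = 1) {τ : ℝ} (hτ : τ = 1 ∨ τ = -1) {i : Fin 6}
    (hi : ∀ᶠ t : ℝ in 𝓝[>] 0, i ∈ T (hb z v τ t)) :
    ∀ᶠ t : ℝ in 𝓝[>] 0, i ∉ Pal U (hb z y τ t) := by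
  obtain ⟨δ, hδ, hd⟩ := mem_nhdsGT_iff_exists_Ioo_subset.1 hi
  rw [mem_Ioi] at hδ
  obtain ⟨θ, hθ⟩ := exists_cis (u := v - z) (by rw [← dist_eq_norm]; exact hv)
  refine mem_nhdsGT_iff_exists_Ioo_subset.2 ⟨δ, hδ, fun t ht => ?_⟩
  intro hcon
  have hττ : τ * τ = 1 := by rcases hτ with rfl | rfl <;> norm_num
  have habs : |τ| = 1 := by rcases hτ with rfl | rfl <;> norm_num
  have e1 : z + cis (θ + τ * t) = hb z v τ t := by
    rw [cis_add, hb, hθ]
  have key := partner_cis h.mx (z := z) (v := hb z y τ t) (θ := θ + τ * t)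
    (η := min t (δ - t)) (i := i) (lt_min ht.1 (by linarith [ht.2])) ?_ ?_ hcon
  · have hd1 := dist_hb hy τ t
    rcases key with h1 | h1
    · rw [h1, dist_self] at hd1
      norm_num at hd1
    · have h2 : hb z y τ t - z = 2 * cis (θ + τ * t) := by linear_combination h1
      rw [dist_eq_norm, h2, norm_mul, norm_cis] at hd1
      norm_num at hd1
  · intro r hr
    have h1 : r = θ + τ * (τ * (r - θ)) := by
      rw [← mul_assoc, hττ]; ring
    have h2 : |τ * (r - θ) - t| < min t (δ - t) := by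
      have h3 : τ * (r - θ) - t = τ * (r - (θ + τ * t)) := by
        linear_combination t * hττ
      rw [h3, abs_mul, habs, one_mul]
      exact hr
    rw [abs_lt] at h2
    have h4 := min_le_left t (δ - t)
    have h5 := min_le_right t (δ - t)
    have h6 : τ * (r - θ) ∈ Ioo 0 δ := ⟨by linarith [h2.1], by linarith [h2.2]⟩
    have h7 : i ∈ T (hb z v τ (τ * (r - θ))) := hd h6
    have h8 : z + cis r = hb z v τ (τ * (r - θ)) := by
      rw [hb, hθ, ← cis_add, ← h1]
    rw [h8]
    exact h.sub _ h7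
  · rw [e1, dist_eq_norm, hb, hb]
    have : z + (v - z) * cis (τ * t) - (z + (y - z) * cis (τ * t)) = (v - y) * cis (τ * t) := by
      ring
    rw [this, norm_mul, norm_cis, mul_one, ← dist_eq_norm, dist_comm]
    exact hyv

/-- on a half branch of `S(z)` at the common point `y` one of the two colours of a pair of `v` is
absent -/
theorem side_hb (h : Irr U T) {z v y : ℂ} {a b c d : Fin 6} (hv : DPt T v a b c d)
    (hyz : dist y z = 1) (hyv : dist y v = 1) (hne : v ≠ z) (hne2 : v + z ≠ 2 * y) {τ : ℝ}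
    (hτ : τ = 1 ∨ τ = -1) :
    (∀ᶠ t : ℝ in 𝓝[>] 0, a ∉ Pal U (hb z y τ t)) ∨ ∀ᶠ t : ℝ in 𝓝[>] 0, b ∉ Pal U (hb z y τ t) := by
  have hs0 : sg z y v ≠ 0 := sg_ne hyz (by rw [dist_comm]; exact hyv) hne hne2
  have hτ0 : τ ≠ 0 := by rcases hτ with rfl | rfl <;> norm_num
  have hvy : dist v y = 1 := by rw [dist_comm]; exact hyv
  rcases lt_or_gt_of_ne (mul_ne_zero hτ0 hs0) with hs | hs
  · have h1 := hb_in (z := z) (v := y) (g := v) hvy hs
    rcases h.sides hv hyv with h2 | h2
    · right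
      filter_upwards [h1, (tendsto_hb z y τ).eventually h2] with t h3 h4
      exact h4.2 h3
    · left
      filter_upwards [h1, (tendsto_hb z y τ).eventually h2] with t h3 h4
      exact h4.2 h3
  · have h1 := hb_out (z := z) (v := y) (g := v) hvy hs
    rcases h.sides hv hyv with h2 | h2
    · left
      filter_upwards [h1, (tendsto_hb z y τ).eventually h2] with t h3 h4
      exact h4.1 h3
    · right
      filter_upwards [h1, (tendsto_hb z y τ).eventually h2] with t h3 h4
      exact h4.1 h3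

/-- a half branch of `S(z)` on which neither `e` nor `f` nor the pairs occur -/
theorem out_false (h : Irr U T) {z y : ℂ} {a b c d e f : Fin 6} (nd : [a, b, c, d, e, f].Nodup)
    (hz : DPt T z a b c d) (hy : dist y z = 1) {τ : ℝ}
    (hA : (∀ᶠ t : ℝ in 𝓝[>] 0, a ∉ Pal U (hb z y τ t)) ∨
      ∀ᶠ t : ℝ in 𝓝[>] 0, b ∉ Pal U (hb z y τ t))
    (hN : ∀ᶠ x in 𝓝 y, {c, d} ⊆ T x → 4 ≤ (T x).ncard)
    (he : ∀ᶠ t : ℝ in 𝓝[>] 0, e ∉ T (hb z y τ t))
    (hf : ∀ᶠ t : ℝ in 𝓝[>] 0, f ∉ T (hb z y τ t)) : False := by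
  obtain ⟨W, hW, hWo, hyW⟩ := _root_.mem_nhds_iff.1 hN
  have hA' : ∀ᶠ t : ℝ in 𝓝[>] 0, ¬ ({a, b} : Set (Fin 6)) ⊆ T (hb z y τ t) := by
    rcases hA with h1 | h1
    · filter_upwards [h1] with t h2 h3
      exact h2 (h.sub _ (h3 (Or.inl rfl)))
    · filter_upwards [h1] with t h2 h3
      exact h2 (h.sub _ (h3 (Or.inr rfl)))
  obtain ⟨t, ht1, ht2, ht3, ht4⟩ := (hA'.and (he.and (hf.and
    ((tendsto_hb z y τ).eventually (hWo.mem_nhds hyW))))).exists
  have hsub : T (hb z y τ t) ⊆ T z := by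
    intro i hi
    rw [hz.pal]
    rcases all_six nd i with rfl | rfl | rfl | rfl | rfl | rfl
    · simp
    · simp
    · simp
    · simp
    · exact absurd hi ht2
    · exact absurd hi ht3
  obtain ⟨q, hqW, hqz, hloc, hqs, hq2, -⟩ := h.arc_of_sub (dist_hb hy τ t) hsub
    (hWo.mem_nhds ht4)
  rcases h.twoPairs hz q hqz hloc (hqs.trans hsub) with h5 | h5
  · exact ht1 (h5 ▸ hqs)
  · have h6 := hW hqW (by rw [h5])
    rw [h5, Set.ncard_pair hz.cd] at h6
    omega

/-- the colours of a direction are absent at the neighbour -/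
theorem no_dir (h : Irr U T) {p y ξ : ℂ} {i j : Fin 6} (hij : i ≠ j) (hi : i ∈ T p) (hj : j ∈ T p)
    (hξ : ‖ξ‖ = 1) (hT : T (p + ξ) = {i, j}) (hy : dist y p = 1) (h1 : ξ ≠ y - p)
    (h2 : ξ ≠ p - y) : i ∉ T (y + ξ) ∧ j ∉ T (y + ξ) := by
  have hp : dist (p + ξ) p = 1 := by rw [dist_eq_norm, add_sub_cancel_left]; exact hξ
  have harc := h.arc_of_eq hij hi hj hp hT
  have hd : dist (p + ξ) (y + ξ) = 1 := by
    rw [dist_eq_norm, add_sub_add_right_eq_sub, ← dist_eq_norm, dist_comm]; exact hy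
  have key : ∀ k ∈ ({i, j} : Set (Fin 6)), k ∉ T (y + ξ) := by
    intro k hk hcon
    rcases h.mx.partner_line hp (harc.2.mono fun q hq => h.sub q (by rw [hq]; exact hk)) hd
      (h.sub _ hcon) with h5 | h5
    · exact h2 (by linear_combination h5)
    · exact h1 (by linear_combination -h5)
  exact ⟨key i (Or.inl rfl), key j (Or.inr rfl)⟩

/-- two colours, both in the palette of the centre -/
theorem eq_pair (h : Irr U T) {y x : ℂ} {c d : Fin 6} (hc : c ∈ T y) (hd : d ∈ T y)
    (hx : dist x y = 1) (hT : T x ⊆ {c, d}) : T x = {c, d} := by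
  have h1 : ¬ T x ⊆ {c} := h.not_single (h.sub _ hc) hx
  have h2 : ¬ T x ⊆ {d} := h.not_single (h.sub _ hd) hx
  refine Subset.antisymm hT ?_
  rintro i (rfl | hi)
  · by_contra hcon
    refine h2 fun k hk => ?_
    rcases hT hk with rfl | h3
    · exact absurd hk hcon
    · exact h3
  · rw [mem_singleton_iff] at hi
    subst hi
    by_contra hcon
    refine h1 fun k hk => ?_
    rcases hT hk with rfl | h3
    · rfl
    · rw [mem_singleton_iff] at h3
      subst h3
      exact absurd hk hcon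

/-- the data: `z = {ab|cd}`, `v = {ab|ef}`, directions `ξ` with `(ab, ef)` and `ζ` with `(cd, ab)` -/
structure Fl (T : ℂ → Set (Fin 6)) (z v ξ ζ : ℂ) (a b c d e f : Fin 6) : Prop where
  nd : [a, b, c, d, e, f].Nodup
  hz : DPt T z a b c d
  hv : DPt T v a b e f
  dist : dist v z = 1
  nx : ‖ξ‖ = 1
  nz : ‖ζ‖ = 1
  x1 : T (z + ξ) = {a, b}
  x2 : T (v + ξ) = {e, f}
  z1 : T (z + ζ) = {c, d}
  z2 : T (v + ζ) = {a, b}

/-- **Step 1**: a common neighbour is `{cd|ef}` -/
theorem Fl.step (h : Irr U T) (h4 : ∀ x, (T x).ncard ≤ 4) {z v ξ ζ y : ℂ}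
    {a b c d e f : Fin 6} (F : Fl T z v ξ ζ a b c d e f) (hyz : Dist.dist y z = 1)
    (hyv : Dist.dist y v = 1)
    (hx : ξ ≠ y - z ∧ ξ ≠ z - y ∧ ξ ≠ y - v ∧ ξ ≠ v - y)
    (hζ : ζ ≠ y - z ∧ ζ ≠ z - y ∧ ζ ≠ y - v ∧ ζ ≠ v - y) :
    Fl T z y ζ ξ c d a b e f := by
  obtain ⟨nd, hz, hv, hvz, nx, nz, x1, x2, z1, z2⟩ := F
  have hab := hz.ab
  have hcd := hz.cd
  have hef := hv.cd
  have ma : a ∈ T z := by rw [hz.pal]; simp
  have mb : b ∈ T z := by rw [hz.pal]; simp
  have mc : c ∈ T z := by rw [hz.pal]; simp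
  have md : d ∈ T z := by rw [hz.pal]; simp
  have va : a ∈ T v := by rw [hv.pal]; simp
  have vb : b ∈ T v := by rw [hv.pal]; simp
  have ve : e ∈ T v := by rw [hv.pal]; simp
  have vf : f ∈ T v := by rw [hv.pal]; simp
  have hne : v ≠ z := by
    rintro rfl
    rw [dist_self] at hvz
    norm_num at hvz
  have hne2 : v + z ≠ 2 * y := by
    intro h1
    have h2 : v - z = 2 * (y - z) := by linear_combination h1
    rw [dist_eq_norm, h2, norm_mul, ← dist_eq_norm, hyz] at hvz
    norm_num at hvz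
  -- the directions at `y`
  have t1 : T (y + ξ) ⊆ {c, d} := by
    obtain ⟨n1, n2⟩ := no_dir h hab ma mb nx x1 hyz hx.1 hx.2.1
    obtain ⟨n3, n4⟩ := no_dir h hef ve vf nx x2 hyv hx.2.2.1 hx.2.2.2
    intro i hi
    rcases all_six nd i with rfl | rfl | rfl | rfl | rfl | rfl
    · exact absurd hi n1
    · exact absurd hi n2
    · exact Or.inl rfl
    · exact Or.inr rfl
    · exact absurd hi n3
    · exact absurd hi n4
  have t2 : T (y + ζ) ⊆ {e, f} := by
    obtain ⟨n1, n2⟩ := no_dir h hcd mc md nz z1 hyz hζ.1 hζ.2.1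
    obtain ⟨n3, n4⟩ := no_dir h hab va vb nz z2 hyv hζ.2.2.1 hζ.2.2.2
    intro i hi
    rcases all_six nd i with rfl | rfl | rfl | rfl | rfl | rfl
    · exact absurd hi n3
    · exact absurd hi n4
    · exact absurd hi n1
    · exact absurd hi n2
    · exact Or.inl rfl
    · exact Or.inr rfl
  have dx : Dist.dist (y + ξ) y = 1 := by rw [dist_eq_norm, add_sub_cancel_left]; exact nx
  have dz : Dist.dist (y + ζ) y = 1 := by rw [dist_eq_norm, add_sub_cancel_left]; exact nz
  have N1 : ∀ᶠ x in 𝓝 y, {c, d} ⊆ T x → 4 ≤ (T x).ncard := by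
    filter_upwards [h.no_layer dx] with x h1 h2
    exact h1 (t1.trans h2)
  have N2 : ∀ᶠ x in 𝓝 y, {e, f} ⊆ T x → 4 ≤ (T x).ncard := by
    filter_upwards [h.no_layer dz] with x h1 h2
    exact h1 (t2.trans h2)
  -- the circle about `z`
  have he : e ∈ T y ∧ f ∈ T y := by
    have key : ∀ g : Fin 6, g ∉ T y → ∀ τ : ℝ, ∀ᶠ t : ℝ in 𝓝[>] 0, g ∉ T (hb z y τ t) := by
      intro g hg τ
      filter_upwards [(tendsto_hb z y τ).eventually (h.nhd y)] with t h1 h2
      exact hg (h1 h2)
    obtain ⟨τ, hτ, g1, g2⟩ := h.germ_flip ma mb hv hvz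
    have hτ' : -τ = 1 ∨ -τ = -1 := by rcases hτ with rfl | rfl <;> norm_num
    have r1 := rot60 h hvz hyz hyv hτ (g1.mono fun t ht => ht.1)
    have r2 := rot60 h hvz hyz hyv hτ' (g2.mono fun t ht => ht.1)
    constructor
    · by_contra hcon
      exact out_false h nd hz hyz (side_hb h hv hyz hyv hne hne2 hτ') N1 (key e hcon _)
        (r2.mono fun t ht h5 => ht (h.sub _ h5))
    · by_contra hcon
      exact out_false h nd hz hyz (side_hb h hv hyz hyv hne hne2 hτ) N1
        (r1.mono fun t ht h5 => ht (h.sub _ h5)) (key f hcon _)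
  have hc : c ∈ T y ∧ d ∈ T y := by
    have key : ∀ g : Fin 6, g ∉ T y → ∀ τ : ℝ, ∀ᶠ t : ℝ in 𝓝[>] 0, g ∉ T (hb v y τ t) := by
      intro g hg τ
      filter_upwards [(tendsto_hb v y τ).eventually (h.nhd y)] with t h1 h2
      exact hg (h1 h2)
    have hzv : Dist.dist z v = 1 := by rw [dist_comm]; exact hvz
    have nd' : [a, b, e, f, c, d].Nodup := by
      have : [a, b, e, f, c, d].Perm [a, b, c, d, e, f] := by
        refine List.Perm.cons _ (List.Perm.cons _ ?_)
        exact (List.perm_append_comm (l₁ := [e, f]) (l₂ := [c, d]))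
      exact this.nodup_iff.2 nd
    have hne' : z ≠ v := hne.symm
    have hne2' : z + v ≠ 2 * y := by rw [add_comm]; exact hne2
    obtain ⟨τ, hτ, g1, g2⟩ := h.germ_flip va vb hz hzv
    have hτ' : -τ = 1 ∨ -τ = -1 := by rcases hτ with rfl | rfl <;> norm_num
    have r1 := rot60 h hzv hyv hyz hτ (g1.mono fun t ht => ht.1)
    have r2 := rot60 h hzv hyv hyz hτ' (g2.mono fun t ht => ht.1)
    constructor
    · by_contra hcon
      exact out_false h nd' hv hyv (side_hb h hz hyv hyz hne' hne2' hτ') N2 (key c hcon _)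
        (r2.mono fun t ht h5 => ht (h.sub _ h5))
    · by_contra hcon
      exact out_false h nd' hv hyv (side_hb h hz hyv hyz hne' hne2' hτ) N2
        (r1.mono fun t ht h5 => ht (h.sub _ h5)) (key d hcon _)
  have hpal : T y = {c, d, e, f} := by
    symm
    refine Set.eq_of_subset_of_ncard_le ?_ ?_ (Set.toFinite _)
    · rintro i (rfl | rfl | rfl | hi)
      · exact hc.1
      · exact hc.2
      · exact he.1
      · rw [mem_singleton_iff] at hi
        subst hi
        exact he.2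
    · refine (h4 y).trans (le_of_eq ?_)
      symm
      simp only [List.nodup_cons, List.mem_cons, List.not_mem_nil, or_false, not_or] at nd
      rw [Set.ncard_insert_of_notMem, Set.ncard_insert_of_notMem, Set.ncard_pair hef]
      · simp only [mem_insert_iff, mem_singleton_iff, not_or]
        exact ⟨nd.2.2.2.1.1, nd.2.2.2.1.2⟩
      · simp only [mem_insert_iff, mem_singleton_iff, not_or]
        exact ⟨hcd, nd.2.2.1.2.1, nd.2.2.1.2.2⟩
  have e1 : T (y + ξ) = {c, d} := eq_pair h hc.1 hc.2 dx t1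
  have e2 : T (y + ζ) = {e, f} := eq_pair h he.1 he.2 dz t2
  have nd2 := nd
  simp only [List.nodup_cons, List.mem_cons, List.not_mem_nil, or_false, not_or] at nd2
  have hy : DPt T y c d e f :=
    { pal := hpal
      ac := nd2.2.2.1.2.1
      ad := nd2.2.2.1.2.2
      bc := nd2.2.2.2.1.1
      bd := nd2.2.2.2.1.2
      ab := hcd
      cd := hef
      arc1 := ⟨_, h.arc_of_eq hcd hc.1 hc.2 dx e1⟩
      arc2 := ⟨_, h.arc_of_eq hef he.1 he.2 dz e2⟩ }
  have nd' : [c, d, a, b, e, f].Nodup := by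
    have : [c, d, a, b, e, f].Perm [a, b, c, d, e, f] := by
      exact (List.perm_append_comm (l₁ := [c, d]) (l₂ := [a, b])).append_right [e, f]
    exact this.nodup_iff.2 nd
  exact ⟨nd', hz.swap, hy, hyz, nz, nx, z1, e2, x1, e1⟩

/-! ### the covering argument -/

/-- the six directions -/
def dd (u w : ℂ) : Fin 6 → ℂ := ![u, w, w - u, -u, -w, u - w]

/-- inside or outside -/
def inn (j k : Fin 6) : Bool := (j == k) || (j + 1 == k) || (k + 1 == j)

theorem ip_vals {u w : ℂ} (hu : ‖u‖ = 1) (hw : ‖w‖ = 1) (huw : ‖w - u‖ = 1) (j k : Fin 6) :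
    (inn j k = true → 1 / 2 ≤ ip (dd u w j) (dd u w k)) ∧
      (inn j k = false → ip (dd u w j) (dd u w k) ≤ -(1 / 2)) := by
  have h1 := ip_sq hu
  have h2 := ip_sq hw
  have h3 := ip_sq huw
  simp only [Complex.sub_re, Complex.sub_im] at h3
  fin_cases j <;> fin_cases k <;>
    simp [inn, dd, ip] <;> nlinarith

theorem inside {z u p : ℂ} {r : ℝ} (hr0 : 0 < r) (hr : r < 1) (hu : ‖u‖ = 1) (hp : ‖p‖ = 1)
    (h : 1 / 2 ≤ ip u p) : dist (z + r * u) (z + p) < 1 := by
  rw [dist_lt_one_iff]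
  have h1 := ip_sq hu
  have h2 := ip_sq hp
  unfold ip at h
  simp only [Complex.add_re, Complex.add_im, Complex.re_ofReal_mul, Complex.im_ofReal_mul]
  have e : (z.re + r * u.re - (z.re + p.re)) ^ 2 + (z.im + r * u.im - (z.im + p.im)) ^ 2 - 1 =
      r ^ 2 * (u.re ^ 2 + u.im ^ 2) - 2 * r * (u.re * p.re + u.im * p.im) +
        (p.re ^ 2 + p.im ^ 2) - 1 := by ring
  rw [e, h1, h2]
  nlinarith

theorem outside {z u p : ℂ} {r : ℝ} (hr0 : 0 < r) (hu : ‖u‖ = 1) (hp : ‖p‖ = 1)
    (h : ip u p ≤ -(1 / 2)) : 1 < dist (z + r * u) (z + p) := by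
  rw [one_lt_dist_iff]
  have h1 := ip_sq hu
  have h2 := ip_sq hp
  unfold ip at h
  simp only [Complex.add_re, Complex.add_im, Complex.re_ofReal_mul, Complex.im_ofReal_mul]
  have e : (z.re + r * u.re - (z.re + p.re)) ^ 2 + (z.im + r * u.im - (z.im + p.im)) ^ 2 - 1 =
      r ^ 2 * (u.re ^ 2 + u.im ^ 2) - 2 * r * (u.re * p.re + u.im * p.im) +
        (p.re ^ 2 + p.im ^ 2) - 1 := by ring
  rw [e, h1, h2]
  nlinarith [mul_pos hr0 hr0]

theorem no_cover : ∀ s : Fin 6 → Bool, ¬ ∀ j : Fin 6,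
    ((∀ k : Fin 6, k.val % 2 = 0 → inn j k = s k) ∨ (∀ k : Fin 6, k.val % 2 = 0 → inn j k = !s k) ∨
      (∀ k : Fin 6, k.val % 2 = 1 → inn j k = s k) ∨
        ∀ k : Fin 6, k.val % 2 = 1 → inn j k = !s k) := by
  decide

/-- **Covering**: the six neighbours of a point `z` with four colours cannot all be two-pair
centres, alternately with the pair `ab` and with the pair `cd` -/
theorem cover (h : Irr U T) {z u w : ℂ} (hu : ‖u‖ = 1) (hw : ‖w‖ = 1) (huw : ‖w - u‖ = 1)
    {a b c d e f : Fin 6} (hz : T z ⊆ {a, b, c, d})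
    (h0 : ∀ k : Fin 6, k.val % 2 = 0 → DPt T (z + dd u w k) a b e f)
    (h1 : ∀ k : Fin 6, k.val % 2 = 1 → DPt T (z + dd u w k) c d e f) : False := by
  have hdd : ∀ k, ‖dd u w k‖ = 1 := by
    intro k
    fin_cases k <;> simp [dd, hu, hw, huw]
    rw [norm_sub_rev]; exact huw
  have hdist : ∀ k, dist z (z + dd u w k) = 1 := by
    intro k
    rw [dist_eq_norm, sub_add_cancel_left, norm_neg]
    exact hdd k
  have hside : ∀ k : Fin 6, ∃ s : Bool,
      (k.val % 2 = 0 → if s then Sd U (z + dd u w k) z a b else Sd U (z + dd u w k) z b a) ∧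
      (k.val % 2 = 1 → if s then Sd U (z + dd u w k) z c d else Sd U (z + dd u w k) z d c) := by
    intro k
    rcases Nat.mod_two_eq_zero_or_one k.val with hk | hk
    · rcases h.sides (h0 k hk) (hdist k) with h2 | h2
      · exact ⟨true, fun _ => by simpa using h2, fun h3 => by omega⟩
      · exact ⟨false, fun _ => by simpa using h2, fun h3 => by omega⟩
    · rcases h.sides (h1 k hk) (hdist k) with h2 | h2
      · exact ⟨true, fun h3 => by omega, fun _ => by simpa using h2⟩
      · exact ⟨false, fun h3 => by omega, fun _ => by simpa using h2⟩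
  choose s hs0 hs1 using hside
  -- small radius
  have hcont : ∀ j, Tendsto (fun r : ℝ => z + r * dd u w j) (𝓝[>] 0) (𝓝 z) := by
    intro j
    have : Continuous fun r : ℝ => z + r * dd u w j := by fun_prop
    have h2 := this.tendsto 0
    simp only [Complex.ofReal_zero, zero_mul, add_zero] at h2
    exact h2.mono_left nhdsWithin_le_nhds
  have hev : ∀ᶠ r : ℝ in 𝓝[>] 0, ∀ j k : Fin 6,
      (k.val % 2 = 0 → ∀ i : Fin 6, (i = a → i ∈ Pal U (z + r * dd u w j) → inn j k = s k) ∧
        (i = b → i ∈ Pal U (z + r * dd u w j) → inn j k = !s k)) ∧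
      (k.val % 2 = 1 → ∀ i : Fin 6, (i = c → i ∈ Pal U (z + r * dd u w j) → inn j k = s k) ∧
        (i = d → i ∈ Pal U (z + r * dd u w j) → inn j k = !s k)) := by
    rw [eventually_all]
    intro j
    rw [eventually_all]
    intro k
    have hsmall : ∀ᶠ r : ℝ in 𝓝[>] 0, 0 < r ∧ r < 1 := by
      filter_upwards [self_mem_nhdsWithin,
        mem_nhdsWithin_of_mem_nhds (Iio_mem_nhds (show (0 : ℝ) < 1 by norm_num))] with r h1 h2
      exact ⟨h1, h2⟩
    obtain ⟨v1, v2⟩ := ip_vals hu hw huw j k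
    have core : ∀ x y : Fin 6, ∀ t : Bool, (if t then Sd U (z + dd u w k) z x y
        else Sd U (z + dd u w k) z y x) → ∀ᶠ r : ℝ in 𝓝[>] 0, ∀ i : Fin 6,
        (i = x → i ∈ Pal U (z + r * dd u w j) → inn j k = t) ∧
        (i = y → i ∈ Pal U (z + r * dd u w j) → inn j k = !t) := by
      intro x y t ht
      rcases hb : inn j k with _ | _
      · -- outside
        cases t with
        | true =>
          have ht : Sd U (z + dd u w k) z x y := by simpa using ht
          filter_upwards [(hcont j).eventually ht, hsmall] with r h3 h4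
          have h5 := outside (z := z) h4.1 (hdd j) (hdd k) (v2 hb)
          intro i
          refine ⟨fun hi hi2 => ?_, fun _ _ => rfl⟩
          exact absurd (hi ▸ hi2) (h3.1 h5)
        | false =>
          have ht : Sd U (z + dd u w k) z y x := by simpa using ht
          filter_upwards [(hcont j).eventually ht, hsmall] with r h3 h4
          have h5 := outside (z := z) h4.1 (hdd j) (hdd k) (v2 hb)
          intro i
          refine ⟨fun _ _ => rfl, fun hi hi2 => ?_⟩
          exact absurd (hi ▸ hi2) (h3.1 h5)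
      · cases t with
        | true =>
          have ht : Sd U (z + dd u w k) z x y := by simpa using ht
          filter_upwards [(hcont j).eventually ht, hsmall] with r h3 h4
          have h5 := inside (z := z) h4.1 h4.2 (hdd j) (hdd k) (v1 hb)
          intro i
          refine ⟨fun _ _ => rfl, fun hi hi2 => ?_⟩
          exact absurd (hi ▸ hi2) (h3.2 h5)
        | false =>
          have ht : Sd U (z + dd u w k) z y x := by simpa using ht
          filter_upwards [(hcont j).eventually ht, hsmall] with r h3 h4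
          have h5 := inside (z := z) h4.1 h4.2 (hdd j) (hdd k) (v1 hb)
          intro i
          refine ⟨fun hi hi2 => ?_, fun _ _ => rfl⟩
          exact absurd (hi ▸ hi2) (h3.2 h5)
    rcases Nat.mod_two_eq_zero_or_one k.val with hk | hk
    · filter_upwards [core a b (s k) (hs0 k hk)] with r h3
      exact ⟨fun _ => h3, fun h5 => by omega⟩
    · filter_upwards [core c d (s k) (hs1 k hk)] with r h3
      exact ⟨fun h5 => by omega, fun _ => h3⟩
  have hT : ∀ᶠ r : ℝ in 𝓝[>] 0, ∀ j : Fin 6, T (z + r * dd u w j) ⊆ T z := by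
    rw [eventually_all]
    exact fun j => (hcont j).eventually (h.nhd z)
  obtain ⟨r, hr, hrT⟩ := (hev.and hT).exists
  refine no_cover s fun j => ?_
  obtain ⟨i, hi⟩ := h.ne (z + r * dd u w j)
  have hp := h.sub _ hi
  rcases hz (hrT j hi) with h5 | h5 | h5 | h5
  · left
    exact fun k hk => ((hr j k).1 hk i).1 h5 hp
  · right; left
    exact fun k hk => ((hr j k).1 hk i).2 h5 hp
  · right; right; left
    exact fun k hk => ((hr j k).2 hk i).1 h5 hp
  · right; right; right
    exact fun k hk => ((hr j k).2 hk i).2 h5 hp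

/-! ### the six neighbours -/

/-- one step round `z` -/
theorem Fl.next (h : Irr U T) (h4 : ∀ x, (T x).ncard ≤ 4) {z p q ξ ζ : ℂ}
    {a b c d e f : Fin 6} (F : Fl T z (z + p) ξ ζ a b c d e f) (hp : ‖q‖ = 1)
    (hpq : ‖q - p‖ = 1) (hx : ξ ≠ q ∧ ξ ≠ -q ∧ ξ ≠ q - p ∧ ξ ≠ p - q)
    (hζ : ζ ≠ q ∧ ζ ≠ -q ∧ ζ ≠ q - p ∧ ζ ≠ p - q) : Fl T z (z + q) ζ ξ c d a b e f := by
  have e1 : z + q - z = q := by ring
  have e2 : z - (z + q) = -q := by ring
  have e3 : z + q - (z + p) = q - p := by ring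
  have e4 : z + p - (z + q) = p - q := by ring
  refine F.step h h4 ?_ ?_ ?_ ?_
  · rw [dist_eq_norm, e1]; exact hp
  · rw [dist_eq_norm, e3]; exact hpq
  · rw [e1, e2, e3, e4]; exact hx
  · rw [e1, e2, e3, e4]; exact hζ

/-- generic directions -/
theorem Fl.false_gen (h : Irr U T) (h4 : ∀ x, (T x).ncard ≤ 4) {z u w ξ ζ : ℂ}
    {a b c d e f : Fin 6} (F : Fl T z (z + u) ξ ζ a b c d e f) (hu : ‖u‖ = 1) (hw : ‖w‖ = 1)
    (huw : ‖w - u‖ = 1) (hx : ∀ k, ξ ≠ dd u w k) (hζ : ∀ k, ζ ≠ dd u w k) : False := by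
  have huw' : ‖u - w‖ = 1 := by rw [norm_sub_rev]; exact huw
  have gen : ∀ ξ : ℂ, (∀ k, ξ ≠ dd u w k) →
      ξ ≠ u ∧ ξ ≠ w ∧ ξ ≠ w - u ∧ ξ ≠ -u ∧ ξ ≠ -w ∧ ξ ≠ u - w := by
    intro ξ hξ
    exact ⟨hξ 0, hξ 1, hξ 2, hξ 3, hξ 4, hξ 5⟩
  obtain ⟨x0, x1, x2, x3, x4, x5⟩ := gen ξ hx
  obtain ⟨y0, y1, y2, y3, y4, y5⟩ := gen ζ hζ
  have F1 : Fl T z (z + w) ζ ξ c d a b e f := F.next h h4 hw huw
    ⟨x1, x4, x2, x5⟩ ⟨y1, y4, y2, y5⟩
  have F2 : Fl T z (z + (w - u)) ξ ζ a b c d e f := F1.next h h4 huw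
    (by rw [sub_sub_cancel_left, norm_neg]; exact hu)
    ⟨y2, by rw [neg_sub]; exact y5, by rw [sub_sub_cancel_left]; exact y3,
      by rw [sub_sub_cancel]; exact y0⟩
    ⟨x2, by rw [neg_sub]; exact x5, by rw [sub_sub_cancel_left]; exact x3,
      by rw [sub_sub_cancel]; exact x0⟩
  have F3 : Fl T z (z + -u) ζ ξ c d a b e f := F2.next h h4 (by rw [norm_neg]; exact hu)
    (by
      have : -u - (w - u) = -w := by ring
      rw [this, norm_neg]; exact hw)
    ⟨x3, by rw [neg_neg]; exact x0, by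
        have : -u - (w - u) = -w := by ring
        rw [this]; exact x4, by
        have : w - u - -u = w := by ring
        rw [this]; exact x1⟩
    ⟨y3, by rw [neg_neg]; exact y0, by
        have : -u - (w - u) = -w := by ring
        rw [this]; exact y4, by
        have : w - u - -u = w := by ring
        rw [this]; exact y1⟩
  have F4 : Fl T z (z + -w) ξ ζ a b c d e f := F3.next h h4 (by rw [norm_neg]; exact hw)
    (by
      have : -w - -u = u - w := by ring
      rw [this]; exact huw')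
    ⟨y4, by rw [neg_neg]; exact y1, by
        have : -w - -u = u - w := by ring
        rw [this]; exact y5, by
        have : -u - -w = w - u := by ring
        rw [this]; exact y2⟩
    ⟨x4, by rw [neg_neg]; exact x1, by
        have : -w - -u = u - w := by ring
        rw [this]; exact x5, by
        have : -u - -w = w - u := by ring
        rw [this]; exact x2⟩
  have F5 : Fl T z (z + (u - w)) ζ ξ c d a b e f := F4.next h h4 huw'
    (by
      have : u - w - -w = u := by ring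
      rw [this]; exact hu)
    ⟨x5, by rw [neg_sub]; exact x2, by
        have : u - w - -w = u := by ring
        rw [this]; exact x0, by
        have : -w - (u - w) = -u := by ring
        rw [this]; exact x3⟩
    ⟨y5, by rw [neg_sub]; exact y2, by
        have : u - w - -w = u := by ring
        rw [this]; exact y0, by
        have : -w - (u - w) = -u := by ring
        rw [this]; exact y3⟩
  refine cover h hu hw huw (a := a) (b := b) (c := c) (d := d) (e := e) (f := f)
    (le_of_eq F.hz.pal) ?_ ?_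
  · intro k hk
    fin_cases k
    · exact F.hv
    · exact absurd hk (by decide)
    · exact F2.hv
    · exact absurd hk (by decide)
    · exact F4.hv
    · exact absurd hk (by decide)
  · intro k hk
    fin_cases k
    · exact absurd hk (by decide)
    · exact F1.hv
    · exact absurd hk (by decide)
    · exact F3.hv
    · exact absurd hk (by decide)
    · exact F5.hv

/-- a direction off a finite set -/
theorem exists_gen (θ : ℝ) {η : ℝ} (hη : 0 < η) {S : Set ℂ} (hS : S.Finite) :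
    ∃ t, |t - θ| < η ∧ cis t ∉ S := by
  by_contra hcon
  push Not at hcon
  set δ := min η 1 with hδ
  have hδ0 : 0 < δ := lt_min hη one_pos
  have hδη : δ ≤ η := min_le_left _ _
  have hδ1 : δ ≤ 1 := min_le_right _ _
  have hinj : InjOn cis (Ioo θ (θ + δ)) := by
    intro s hs t ht hst
    unfold cis at hst
    rw [Complex.exp_eq_exp_iff_exists_int] at hst
    obtain ⟨n, hn⟩ := hst
    have h1 : (s : ℂ) = t + n * (2 * Real.pi) := by
      have h2 : ((s : ℂ) - (t + n * (2 * Real.pi))) * Complex.I = 0 := by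
        linear_combination hn
      rcases mul_eq_zero.1 h2 with h3 | h3
      · linear_combination h3
      · exact absurd h3 Complex.I_ne_zero
    have h2 : s = t + n * (2 * Real.pi) := by exact_mod_cast h1
    have hpi := Real.pi_gt_three
    have h5 : n = 0 := by
      have h6 : |(n : ℝ) * (2 * Real.pi)| < 1 := by
        have : (n : ℝ) * (2 * Real.pi) = s - t := by linarith
        rw [this, abs_lt]
        constructor <;> linarith [hs.1, hs.2, ht.1, ht.2]
      by_contra hn0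
      have h7 : (1 : ℝ) ≤ |(n : ℝ)| := by
        have : (1 : ℤ) ≤ |n| := Int.one_le_abs hn0
        exact_mod_cast this
      rw [abs_mul, abs_of_pos (by positivity : (0 : ℝ) < 2 * Real.pi)] at h6
      nlinarith
    rw [h5] at h2
    simpa using h2
  have hsub : cis '' Ioo θ (θ + δ) ⊆ S := by
    rintro _ ⟨t, ht, rfl⟩
    refine hcon t ?_
    rw [abs_lt]
    constructor <;> linarith [ht.1, ht.2]
  exact (Ioo_infinite (by linarith : θ < θ + δ)).image hinj (hS.subset hsub)

/-- **No flips.** Two two-pair centres `z = {ab|cd}` and `v = {ab|ef}` at distance one do not exist,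
if a direction `ξ` has `ab` on `S(z)` and `ef` on `S(v)`, and a direction `ζ` has `cd` on `S(z)` and
`ab` on `S(v)`. -/
theorem _root_.Vale.Agent.P032.Six.Irr.no_flip (h : Irr U T) (h4 : ∀ x, (T x).ncard ≤ 4)
    {z v ξ ζ : ℂ} {a b c d e f : Fin 6} (nd : [a, b, c, d, e, f].Nodup) (hz : DPt T z a b c d)
    (hv : DPt T v a b e f) (hvz : Dist.dist v z = 1) (nx : ‖ξ‖ = 1) (nz : ‖ζ‖ = 1)
    (x1 : T (z + ξ) = {a, b}) (x2 : T (v + ξ) = {e, f}) (z1 : T (z + ζ) = {c, d})
    (z2 : T (v + ζ) = {a, b}) : False := by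
  obtain ⟨u, rfl⟩ : ∃ u, v = z + u := ⟨v - z, by ring⟩
  have hu : ‖u‖ = 1 := by rw [dist_eq_norm, add_sub_cancel_left] at hvz; exact hvz
  set w := u * cis (Real.pi / 3) with hw
  have hw1 : ‖w‖ = 1 := by rw [hw, norm_mul, norm_cis, hu, one_mul]
  have hc3 : ‖cis (Real.pi / 3) - 1‖ = 1 := by
    have h1 : ‖cis (Real.pi / 3) - 1‖ ^ 2 = 1 := by
      rw [Complex.sq_norm, Complex.normSq_apply, Complex.sub_re, Complex.sub_im, cis_re, cis_im,
        Complex.one_re, Complex.one_im, Real.cos_pi_div_three, Real.sin_pi_div_three]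
      have := Real.sq_sqrt (show (0 : ℝ) ≤ 3 by norm_num)
      nlinarith
    have h2 := norm_nonneg (cis (Real.pi / 3) - 1)
    nlinarith
  have huw : ‖w - u‖ = 1 := by
    have : w - u = u * (cis (Real.pi / 3) - 1) := by rw [hw]; ring
    rw [this, norm_mul, hu, one_mul, hc3]
  have hS : (range (dd u w)).Finite := finite_range _
  -- generic directions
  have key : ∀ (ξ : ℂ) (i j k l : Fin 6), ‖ξ‖ = 1 → i ≠ j → k ≠ l → i ∈ T z → j ∈ T z →
      k ∈ T (z + u) → l ∈ T (z + u) → T (z + ξ) = {i, j} → T (z + u + ξ) = {k, l} →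
      ∃ ξ' : ℂ, ‖ξ'‖ = 1 ∧ T (z + ξ') = {i, j} ∧ T (z + u + ξ') = {k, l} ∧
        ∀ m, ξ' ≠ dd u w m := by
    intro ξ i j k l hξ hij hkl hi hj hk hl h1 h2
    obtain ⟨θ, rfl⟩ := exists_cis hξ
    obtain ⟨η1, hη1, hJ1⟩ := (h.arc_of_eq hij hi hj (dist_add_cis z θ) h1).exists_eta
    obtain ⟨η2, hη2, hJ2⟩ := (h.arc_of_eq hkl hk hl (dist_add_cis (z + u) θ) h2).exists_eta
    obtain ⟨t, ht, htS⟩ := exists_gen θ (lt_min hη1 hη2) hS
    refine ⟨cis t, norm_cis t, hJ1 t (ht.trans_le (min_le_left _ _)),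
      hJ2 t (ht.trans_le (min_le_right _ _)), fun m hm => htS ⟨m, hm.symm⟩⟩
  have ma : a ∈ T z := by rw [hz.pal]; simp
  have mb : b ∈ T z := by rw [hz.pal]; simp
  have mc : c ∈ T z := by rw [hz.pal]; simp
  have md : d ∈ T z := by rw [hz.pal]; simp
  have va : a ∈ T (z + u) := by rw [hv.pal]; simp
  have vb : b ∈ T (z + u) := by rw [hv.pal]; simp
  have ve : e ∈ T (z + u) := by rw [hv.pal]; simp
  have vf : f ∈ T (z + u) := by rw [hv.pal]; simp
  obtain ⟨ξ', nx', x1', x2', hξ'⟩ := key ξ a b e f nx hz.ab hv.cd ma mb ve vf x1 x2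
  obtain ⟨ζ', nz', z1', z2', hζ'⟩ := key ζ c d a b nz hz.cd hz.ab mc md va vb z1 z2
  exact Fl.false_gen h h4 (F := ⟨nd, hz, hv, hvz, nx', nz', x1', x2', z1', z2'⟩) hu hw1 huw hξ' hζ'

end Flip

end Vale.Agent.P032.Six
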